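import Mathlib

namespace Vale.Agent.P037

/-- `(r, c)` is an ordered copy of the binary `k × k` matrix `H` in the binary `n × n` matrix `A`:
rows `r 0 < ... < r (k-1)`, columns `c 0 < ... < c (k-1)`, and all entries (zeros and ones) match. -/
def IsCopy {k n : ℕ} (H : Matrix (Fin k) (Fin k) (Fin 2)) (A : Matrix (Fin n) (Fin n) (Fin 2))
    (r c : Fin k → Fin n) : Prop :=
  StrictMono r ∧ StrictMono c ∧ ∀ i j, A (r i) (c j) = H i j

/-- `N_H(A)`: the number of ordered copies of `H` in `A`. -/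
noncomputable def numCopies {k n : ℕ} (H : Matrix (Fin k) (Fin k) (Fin 2))
    (A : Matrix (Fin n) (Fin n) (Fin 2)) : ℕ :=
  Set.ncard {p : (Fin k → Fin n) × (Fin k → Fin n) | IsCopy H A p.1 p.2}

/-- The number of entries in which `A` and `B` differ. -/
noncomputable def hamming {n : ℕ} (A B : Matrix (Fin n) (Fin n) (Fin 2)) : ℕ :=
  Set.ncard {p : Fin n × Fin n | A p.1 p.2 ≠ B p.1 p.2}

/-- `dist_H(A)`: the least number of entries in which `A` differs from an `H`-free matrix `B`,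
divided by `n ^ 2`. -/
noncomputable def distFree {k n : ℕ} (H : Matrix (Fin k) (Fin k) (Fin 2))
    (A : Matrix (Fin n) (Fin n) (Fin 2)) : ℝ :=
  ((sInf {m : ℕ | ∃ B : Matrix (Fin n) (Fin n) (Fin 2), numCopies H B = 0 ∧ hamming A B = m} : ℕ) : ℝ)
    / (n : ℝ) ^ 2

end Vale.Agent.P037
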