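import Vale.Agent.P037.Core

namespace Vale.Agent.P037

open Finset

abbrev Typ (d : ℕ) := ((Fin (d + 1) × Fin 5) × Fin 13) ⊕ (Fin (d + 1) × Bool)

def pt {d : ℕ} (x : ℕ) : Typ d → Pt
  | .inl ((h, m), s) => .inl ((h.val, m), s)
  | .inr (h, s) => .inr (h.val, s, x / 2 ^ h.val)

def ctrl {d : ℕ} (a b : Typ d) : Prop :=
  a.isLeft = true ∨ b.isLeft = true ∨ ∃ s, a = .inr (Fin.last d, s)

def HasCopy {d : ℕ} (G : Typ d → Typ d → Fin 2) (x : ℕ) : Prop :=
  ∃ ρ γ : Fin 13 → Typ d, StrictMono (key ∘ pt x ∘ ρ) ∧ StrictMono (key ∘ pt x ∘ γ) ∧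
    ∀ i j, G (ρ i) (γ j) = HH i j

def sel {d : ℕ} (h : Fin (d + 1)) (m : Fin 5) (f : Fin 13 → Fin (d + 1) × Bool) (i : Fin 13) :
    Typ d :=
  if i.val < thr m then .inl ((h, m), i) else .inr (f i)

lemma sel_mono {d : ℕ} (x : ℕ) (h : Fin (d + 1)) (m : Fin 5) (f : Fin 13 → Fin (d + 1) × Bool)
    (hf : ∀ i j : Fin 13, thr m ≤ i.val → i < j →
      key (pt x (.inr (f i))) < key (pt x (.inr (f j)))) :
    StrictMono (key ∘ pt x ∘ sel h m f) := by
  intro i j hij
  have hij' : i.val < j.val := hij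
  simp only [Function.comp, sel]
  split_ifs with c1 c2 c2
  · simp only [pt, key, Prod.Lex.lt_iff]
    right
    simpa using hij
  · rw [Prod.Lex.lt_iff]
    left
    have := key_inr_fst ((f j).1.val, (f j).2, x / 2 ^ (f j).1.val)
    exact this
  · omega
  · exact hf i j (by omega) hij

lemma sel_role {d : ℕ} (tr : Bool) (x : ℕ) (h : Fin (d + 1)) (m : Fin 5)
    (f : Fin 13 → Fin (d + 1) × Bool)
    (hf : ∀ i : Fin 13, thr m ≤ i.val → role tr (h.val, m) (pt x (.inr (f i))) = some i)
    (i : Fin 13) : role tr (h.val, m) (pt x (sel h m f i)) = some i := by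
  unfold sel
  split_ifs with c
  · simp [pt, role, c]
  · exact hf i (by omega)

lemma mode_apply {d : ℕ} (G : Typ d → Typ d → Fin 2) (x : ℕ)
    (hc : ∀ a b, ctrl a b → G a b = ent false (pt x a) (pt x b))
    (h : Fin (d + 1)) (m : Fin 5) (f g : Fin 13 → Fin (d + 1) × Bool)
    (hf : ∀ i j : Fin 13, thr m ≤ i.val → i < j →
      key (pt x (.inr (f i))) < key (pt x (.inr (f j))))
    (hg : ∀ i j : Fin 13, thr m ≤ i.val → i < j →
      key (pt x (.inr (g i))) < key (pt x (.inr (g j))))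
    (rf : ∀ i : Fin 13, thr m ≤ i.val → role false (h.val, m) (pt x (.inr (f i))) = some i)
    (rg : ∀ i : Fin 13, thr m ≤ i.val → role true (h.val, m) (pt x (.inr (g i))) = some i)
    (hG : ∀ i j : Fin 13, thr m ≤ i.val → thr m ≤ j.val → G (.inr (f i)) (.inr (g j)) = HH i j) :
    HasCopy G x := by
  refine ⟨sel h m f, sel h m g, sel_mono x h m f hf, sel_mono x h m g hg, fun i j => ?_⟩
  have r1 := sel_role false x h m f rf i
  have r2 := sel_role true x h m g rg j
  by_cases c1 : i.val < thr m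
  · have e : sel h m f i = .inl ((h, m), i) := by simp [sel, c1]
    rw [hc _ _ (Or.inl (by rw [e]; rfl))]
    have e' : pt x (sel h m f i) = .inl ((h.val, m), i) := by rw [e]; rfl
    rw [e'] at r1 ⊢
    rw [ent_left, r1, Bool.not_false, r2]; rfl
  by_cases c2 : j.val < thr m
  · have e : sel h m g j = .inl ((h, m), j) := by simp [sel, c2]
    rw [hc _ _ (Or.inr (Or.inl (by rw [e]; rfl)))]
    have e' : pt x (sel h m g j) = .inl ((h.val, m), j) := by rw [e]; rfl
    rw [e'] at r2 ⊢
    rw [ent_right, r1, Bool.not_false, r2]; rfl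
  · simp only [sel, c1, c2, if_false]
    exact hG i j (by omega) (by omega)

lemma fin2_eq_zero {a : Fin 2} (h : a ≠ 1) : a = 0 := by omega
lemma fin2_eq_one {a : Fin 2} (h : a ≠ 0) : a = 1 := by omega

lemma single_apply {d : ℕ} (G : Typ d → Typ d → Fin 2) (x : ℕ)
    (hc : ∀ a b, ctrl a b → G a b = ent false (pt x a) (pt x b)) (hn : ¬ HasCopy G x)
    (h : Fin (d + 1)) (m : Fin 5) (hm : ¬ m.val ≤ 1) (a b : Fin (d + 1) × Bool)
    (ra : ∀ y, mrole false h.val m a.1.val a.2 y = some 12)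
    (rb : ∀ y, mrole true h.val m b.1.val b.2 y = some 12) : G (.inr a) (.inr b) = 0 := by
  apply fin2_eq_zero
  intro e
  have t : thr m = 12 := by simp [thr, hm]
  have i12 : ∀ i : Fin 13, thr m ≤ i.val → i = 12 := by
    intro i hi; apply Fin.ext; have := i.2; simp; omega
  apply hn
  refine mode_apply G x hc h m (fun _ => a) (fun _ => b) ?_ ?_ ?_ ?_ ?_
  · intro i j hi hij
    have : i.val < j.val := hij
    have := j.2
    omega
  · intro i j hi hij
    have : i.val < j.val := hij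
    have := j.2
    omega
  · intro i hi
    rw [i12 i hi]; exact ra _
  · intro i hi
    rw [i12 i hi]; exact rb _
  · intro i j hi hj
    rw [i12 i hi, i12 j hj, e]
    decide +kernel

lemma key_lt_left (x h : ℕ) (s : Bool) :
    key (.inr (h + 1, false, x / 2 ^ (h + 1))) < key (.inr (h, s, x / 2 ^ h)) := by
  have e : x / 2 ^ (h + 1) = x / 2 ^ h / 2 := by rw [pow_succ, Nat.div_div_eq_div_mul]
  have hp : 0 < 2 ^ h := by positivity
  have a : x / 2 ^ h / 2 * 2 ^ (h + 1) ≤ x / 2 ^ h * 2 ^ h := by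
    have := Nat.div_mul_le_self (x / 2 ^ h) 2
    calc x / 2 ^ h / 2 * 2 ^ (h + 1) = (x / 2 ^ h / 2 * 2) * 2 ^ h := by ring
      _ ≤ _ := Nat.mul_le_mul_right _ this
  rw [e, Prod.Lex.lt_iff']
  cases s <;> simp [key] <;> omega

lemma key_lt_right (x h : ℕ) (s : Bool) :
    key (.inr (h, s, x / 2 ^ h)) < key (.inr (h + 1, true, x / 2 ^ (h + 1))) := by
  have e : x / 2 ^ (h + 1) = x / 2 ^ h / 2 := by rw [pow_succ, Nat.div_div_eq_div_mul]
  have hp : 0 < 2 ^ h := by positivity
  have a : x / 2 ^ h * 2 ^ h + 2 ^ h ≤ x / 2 ^ h / 2 * 2 ^ (h + 1) + 2 ^ (h + 1) := by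
    have : x / 2 ^ h + 1 ≤ x / 2 ^ h / 2 * 2 + 2 := by omega
    calc x / 2 ^ h * 2 ^ h + 2 ^ h = (x / 2 ^ h + 1) * 2 ^ h := by ring
      _ ≤ (x / 2 ^ h / 2 * 2 + 2) * 2 ^ h := Nat.mul_le_mul_right _ this
      _ = _ := by ring
  rw [e, Prod.Lex.lt_iff']
  cases s <;> simp [key] <;> omega

def tri {d : ℕ} (h : Fin d) (s : Bool) (i : Fin 13) : Fin (d + 1) × Bool :=
  if i = 10 then (h.succ, false) else if i = 11 then (h.castSucc, s) else (h.succ, true)

lemma ge10 {i : Fin 13} (hi : 10 ≤ i.val) : i = 10 ∨ i = 11 ∨ i = 12 := by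
  revert i; decide

lemma tri_mono {d : ℕ} (x : ℕ) (h : Fin d) (s : Bool) (i j : Fin 13) (hi : 10 ≤ i.val)
    (hij : i < j) : key (pt x (.inr (tri h s i))) < key (pt x (.inr (tri h s j))) := by
  have hj : 10 ≤ j.val := le_trans hi hij.le
  have k1 := key_lt_left x h.val s
  have k2 := key_lt_right x h.val s
  rcases ge10 hi with rfl | rfl | rfl <;> rcases ge10 hj with rfl | rfl | rfl <;>
    first
    | exact absurd hij (by decide)
    | exact k1
    | exact k2
    | exact k1.trans k2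

lemma tri_role {d : ℕ} (tr : Bool) (x : ℕ) (h : Fin d) (s : Bool) (m : Fin 5)
    (hm : m.val = x / 2 ^ h.val % 2) (i : Fin 13) (hi : 10 ≤ i.val) :
    role tr (h.castSucc.val, m) (pt x (.inr (tri h s i))) = some i := by
  have m1 : m.val ≤ 1 := by omega
  rcases ge10 hi with rfl | rfl | rfl <;> simp [tri, pt, role, mrole, m1, ← hm]

theorem far_core {d : ℕ} (G : Typ d → Typ d → Fin 2) (x : ℕ)
    (hc : ∀ a b, ctrl a b → G a b = ent false (pt x a) (pt x b)) : HasCopy G x := by
  by_contra hn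
  have cross1 : ∀ (h : Fin d) s s', G (.inr (h.castSucc, s)) (.inr (h.succ, s')) = 0 := by
    intro h s s'
    apply single_apply G x hc hn h.castSucc 2 (by decide) <;> intro y <;> simp [mrole]
  have cross2 : ∀ (h : Fin d) s s', G (.inr (h.succ, s)) (.inr (h.castSucc, s')) = 0 := by
    intro h s s'
    apply single_apply G x hc hn h.castSucc 3 (by decide) <;> intro y <;> simp [mrole]
  have leaf : G (.inr (0, false)) (.inr (0, false)) = 0 := by
    apply single_apply G x hc hn 0 4 (by decide) <;> intro y <;> simp [mrole]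
  have all : ∀ (h : Fin (d + 1)) s s', G (.inr (h, s)) (.inr (h, s')) = 1 := by
    intro h
    induction h using Fin.reverseInduction with
    | last =>
      intro s s'
      rw [hc _ _ (Or.inr (Or.inr ⟨s, rfl⟩))]
      simp [pt, ent]
    | cast h ih =>
      intro s s'
      apply fin2_eq_one
      intro e
      apply hn
      have hlt : x / 2 ^ h.val % 2 < 5 := by omega
      have t : thr ⟨_, hlt⟩ = 10 := by
        have : x / 2 ^ h.val % 2 ≤ 1 := by omega
        simp [thr, this]
      refine mode_apply G x hc h.castSucc ⟨_, hlt⟩ (tri h s) (tri h s') ?_ ?_ ?_ ?_ ?_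
      · intro i j hi hij
        exact tri_mono x h s i j (by omega) hij
      · intro i j hi hij
        exact tri_mono x h s' i j (by omega) hij
      · intro i hi
        exact tri_role false x h s _ rfl i (by omega)
      · intro i hi
        exact tri_role true x h s' _ rfl i (by omega)
      · intro i j hi hj
        rw [t] at hi hj
        rcases ge10 hi with rfl | rfl | rfl <;> rcases ge10 hj with rfl | rfl | rfl <;>
          simp only [tri, if_true, if_false, Fin.reduceEq, ih, cross1, cross2, e] <;>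
          decide +kernel
  rw [all] at leaf
  exact absurd leaf (by decide)

end Vale.Agent.P037
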