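import Vale.Agent.P037.Rare
import Vale.Agent.P037.Far

namespace Vale.Agent.P037

open Finset

abbrev Idx (d t : ℕ) := Typ d × Fin (2 ^ d * t)

def proj {d t : ℕ} (r : Idx d t) : Pt := pt (r.2.val / t) r.1

lemma card_Idx (d t : ℕ) : Fintype.card (Idx d t) = 67 * (d + 1) * (2 ^ d * t) := by
  simp only [Idx, Typ, Fintype.card_prod, Fintype.card_sum, Fintype.card_fin, Fintype.card_bool]
  ring

lemma exists_order (d t : ℕ) : ∃ e : Fin (67 * (d + 1) * (2 ^ d * t)) ≃ Idx d t,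
    Monotone (key ∘ proj ∘ e) := by
  let e0 : Fin (67 * (d + 1) * (2 ^ d * t)) ≃ Idx d t :=
    (Fintype.equivFinOfCardEq (card_Idx d t)).symm
  exact ⟨(Tuple.sort (key ∘ proj ∘ e0)).trans e0, Tuple.monotone_sort (key ∘ proj ∘ e0)⟩

def host {d t n : ℕ} (e : Fin n ≃ Idx d t) : Matrix (Fin n) (Fin n) (Fin 2) :=
  fun i j => ent false (proj (e i)) (proj (e j))

def top {d : ℕ} (a : Typ d) : Prop := a.isLeft = true ∨ ∃ s, a = .inr (Fin.last d, s)

open Classical in
noncomputable def rowSel {d t : ℕ} (x y : Fin (2 ^ d * t)) (a : Typ d) : Idx d t :=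
  (a, if top a then y else x)

def colSel {d t : ℕ} [NeZero (2 ^ d * t)] (x y : Fin (2 ^ d * t)) (a : Typ d) : Idx d t :=
  (a, if a.isLeft then x + y else x)

lemma proj_rowSel {d t : ℕ} (x y : Fin (2 ^ d * t)) (a : Typ d) :
    proj (rowSel x y a) = pt (x.val / t) a := by
  unfold rowSel proj
  split_ifs with c
  · rcases c with c | ⟨s, rfl⟩
    · obtain ⟨⟨⟨h, m⟩, s⟩, rfl⟩ := Sum.isLeft_iff.1 c
      rfl
    · have z : ∀ w : Fin (2 ^ d * t), w.val / t / 2 ^ d = 0 := by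
        intro w
        rw [Nat.div_div_eq_div_mul, mul_comm t]
        exact Nat.div_eq_of_lt w.2
      simp [pt, z]
  · rfl

lemma proj_colSel {d t : ℕ} [NeZero (2 ^ d * t)] (x y : Fin (2 ^ d * t)) (a : Typ d) :
    proj (colSel x y a) = pt (x.val / t) a := by
  unfold colSel proj
  split_ifs with c
  · obtain ⟨⟨⟨h, m⟩, s⟩, rfl⟩ := Sum.isLeft_iff.1 c
    rfl
  · rfl

lemma strictMono_of_key {n k : ℕ} {α : Type} [LinearOrder α] (f : Fin n → α) (hf : Monotone f)
    (r : Fin k → Fin n) (h : StrictMono (f ∘ r)) : StrictMono r := by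
  intro i j hij
  by_contra c
  exact absurd (h hij) (not_lt.2 (hf (not_lt.1 c)))

theorem host_far {d t n : ℕ} (ht : 1 ≤ t) (e : Fin n ≃ Idx d t) (he : Monotone (key ∘ proj ∘ e))
    (B : Matrix (Fin n) (Fin n) (Fin 2)) (hB : numCopies HH B = 0) :
    (2 ^ d * t) ^ 2 ≤ hamming (host e) B := by
  have : NeZero (2 ^ d * t) := ⟨by positivity⟩
  have hB' : ∀ r c, ¬ IsCopy HH B r c := by
    intro r c h
    have := (Set.ncard_eq_zero (Set.toFinite _)).1 hB
    exact (Set.eq_empty_iff_forall_notMem.1 this) (r, c) h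
  have ex : ∀ p : Fin (2 ^ d * t) × Fin (2 ^ d * t), ∃ q : Typ d × Typ d, ctrl q.1 q.2 ∧
      host e (e.symm (rowSel p.1 p.2 q.1)) (e.symm (colSel p.1 p.2 q.2)) ≠
        B (e.symm (rowSel p.1 p.2 q.1)) (e.symm (colSel p.1 p.2 q.2)) := by
    rintro ⟨x, y⟩
    by_contra hn
    push Not at hn
    obtain ⟨ρ, γ, h1, h2, h3⟩ := far_core
      (fun a b => B (e.symm (rowSel x y a)) (e.symm (colSel x y b))) (x.val / t) (by
        intro a b hab
        rw [← hn (a, b) hab]
        simp only [host, Equiv.apply_symm_apply, proj_rowSel, proj_colSel])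
    refine hB' (fun i => e.symm (rowSel x y (ρ i))) (fun j => e.symm (colSel x y (γ j)))
      ⟨?_, ?_, h3⟩
    · apply strictMono_of_key _ he
      intro i j hij
      simpa [proj_rowSel] using h1 hij
    · apply strictMono_of_key _ he
      intro i j hij
      simpa [proj_colSel] using h2 hij
  choose q hq1 hq2 using ex
  have := Set.ncard_le_ncard_of_injOn (s := (Set.univ : Set (Fin (2 ^ d * t) × Fin (2 ^ d * t))))
    (t := {p : Fin n × Fin n | host e p.1 p.2 ≠ B p.1 p.2})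
    (fun p => (e.symm (rowSel p.1 p.2 (q p).1), e.symm (colSel p.1 p.2 (q p).2)))
    (fun p _ => hq2 p) (by
      rintro ⟨x, y⟩ - ⟨x', y'⟩ - h
      simp only [Prod.mk.injEq, EmbeddingLike.apply_eq_iff_eq, rowSel, colSel] at h
      obtain ⟨⟨a1, a2⟩, b1, b2⟩ := h
      have c := hq1 (x, y)
      rw [← a1] at a2
      rw [← b1] at b2
      by_cases c1 : top (q (x, y)).1
      · simp only [if_pos c1] at a2
        subst a2
        split_ifs at b2
        · rw [add_right_cancel b2]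
        · rw [b2]
      · simp only [if_neg c1] at a2
        subst a2
        have c2 : (q (x, y)).2.isLeft = true := by
          rcases c with c | c | c
          · exact absurd (Or.inl c) c1
          · exact c
          · exact absurd (Or.inr c) c1
        simp only [if_pos c2] at b2
        rw [add_left_cancel b2])
  rw [Set.ncard_univ, Nat.card_prod, Nat.card_fin] at this
  rw [sq]
  exact this

def side {d : ℕ} : Typ d → Bool
  | .inl _ => false
  | .inr (_, s) => s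

lemma proj_leaf {d t : ℕ} {r : Idx d t} {s : Bool} {v : ℕ} (h : proj r = .inr (0, s, v)) :
    r.1 = .inr (0, s) ∧ r.2.val / t = v := by
  obtain ⟨a, j⟩ := r
  rcases a with ⟨⟨h', m⟩, s'⟩ | ⟨h', s'⟩
  · simp [proj, pt] at h
  · simp only [proj, pt, Sum.inr.injEq, Prod.mk.injEq] at h
    obtain ⟨h1, h2, h3⟩ := h
    have : h' = 0 := Fin.ext h1
    subst this h2
    simpa using h3

theorem host_few {d t n : ℕ} (ht : 1 ≤ t) (e : Fin n ≃ Idx d t) (he : Monotone (key ∘ proj ∘ e)) :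
    numCopies HH (host e) ≤ 2 * (2 ^ d * t) * (2 * t) * (n ^ 12 * n ^ 12) := by
  have rare : ∀ r c, IsCopy HH (host e) r c → ∃ s s' v, proj (e (r 12)) = .inr (0, s, v) ∧
      proj (e (c 12)) = .inr (0, s', v) := by
    rintro r c ⟨h1, h2, h3⟩
    exact copy_rare (fun i => proj (e (r i))) (fun j => proj (e (c j)))
      (he.comp h1.monotone) (he.comp h2.monotone) h3
  have := Set.ncard_le_ncard_of_injOn
    (s := {p : (Fin 13 → Fin n) × (Fin 13 → Fin n) | IsCopy HH (host e) p.1 p.2})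
    (t := (Set.univ : Set (((Bool × Fin (2 ^ d * t)) × (Bool × Fin t)) ×
      ((Fin 12 → Fin n) × (Fin 12 → Fin n)))))
    (fun p => (((side (e (p.1 12)).1, (e (p.1 12)).2),
      (side (e (p.2 12)).1, ⟨(e (p.2 12)).2.val % t, Nat.mod_lt _ ht⟩)),
      (Fin.init p.1, Fin.init p.2)))
    (fun _ _ => Set.mem_univ _) (by
      rintro ⟨r, c⟩ h ⟨r', c'⟩ h' hh
      obtain ⟨s1, s2, v, a1, a2⟩ := rare r c h
      obtain ⟨s1', s2', v', a1', a2'⟩ := rare r' c' h'
      obtain ⟨b1, b2⟩ := proj_leaf a1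
      obtain ⟨b3, b4⟩ := proj_leaf a2
      obtain ⟨b1', b2'⟩ := proj_leaf a1'
      obtain ⟨b3', b4'⟩ := proj_leaf a2'
      simp only [Prod.mk.injEq, Fin.mk.injEq, b1, b3, b1', b3', side] at hh
      obtain ⟨⟨⟨c1, c2⟩, c3, c4⟩, c5, c6⟩ := hh
      have r12 : r 12 = r' 12 := by
        apply e.injective
        exact Prod.ext (by rw [b1, b1', c1]) c2
      have c12 : c 12 = c' 12 := by
        apply e.injective
        refine Prod.ext (by rw [b3, b3', c3]) (Fin.ext ?_)
        rw [← Nat.div_add_mod (e (c 12)).2.val t, ← Nat.div_add_mod (e (c' 12)).2.val t, c4, b4,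
          b4', ← b2, ← b2', c2]
      refine Prod.ext ?_ ?_
      · funext i
        refine Fin.lastCases r12 (fun k => congrFun c5 k) i
      · funext i
        refine Fin.lastCases c12 (fun k => congrFun c6 k) i)
  rw [Set.ncard_univ] at this
  simpa [numCopies, Nat.card_eq_fintype_card] using this

theorem quant (d t : ℕ) (ht : 1 ≤ t) :
    ∃ A : Matrix (Fin (67 * (d + 1) * (2 ^ d * t))) (Fin (67 * (d + 1) * (2 ^ d * t))) (Fin 2),
      1 / (67 * ((d : ℝ) + 1)) ^ 2 ≤ distFree HH A ∧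
      (numCopies HH A : ℝ) ≤ ((67 * (d + 1) * (2 ^ d * t) : ℕ) : ℝ) ^ 26 / 2 ^ d := by
  obtain ⟨e, he⟩ := exists_order d t
  refine ⟨host e, ?_, ?_⟩
  · have ne : {m : ℕ | ∃ B, numCopies HH B = 0 ∧ hamming (host e) B = m}.Nonempty := by
      refine ⟨_, fun _ _ => 0, ?_, rfl⟩
      unfold numCopies
      rw [Set.ncard_eq_zero (Set.toFinite _), Set.eq_empty_iff_forall_notMem]
      rintro p ⟨-, -, h⟩
      have := h 0 0
      rw [HH_row0] at this
      exact absurd (show (0 : Fin 2) = 1 from this) (by decide)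
    obtain ⟨B, hB, hm⟩ := Nat.sInf_mem ne
    have far := host_far ht e he B hB
    rw [hm] at far
    unfold distFree
    have hM : (0 : ℝ) < 2 ^ d * t := by positivity
    rw [div_le_div_iff₀ (by positivity) (by positivity)]
    have far' : ((2 ^ d * t : ℝ)) ^ 2 ≤ ((sInf {m : ℕ | ∃ B, numCopies HH B = 0 ∧
        hamming (host e) B = m} : ℕ) : ℝ) := by exact_mod_cast far
    push_cast
    calc (1 : ℝ) * (67 * (d + 1) * (2 ^ d * t)) ^ 2 = (2 ^ d * t) ^ 2 * (67 * (d + 1)) ^ 2 := by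
          ring
      _ ≤ _ := by gcongr
  · have few := host_few ht e he
    rw [le_div_iff₀ (by positivity)]
    have : numCopies HH (host e) * 2 ^ d ≤ (67 * (d + 1) * (2 ^ d * t)) ^ 26 := by
      have hn : 2 * (2 ^ d * t) ≤ 67 * (d + 1) * (2 ^ d * t) :=
        Nat.mul_le_mul_right _ (by omega)
      generalize numCopies HH (host e) = N at few ⊢
      clear he e
      generalize 67 * (d + 1) * (2 ^ d * t) = n at few hn ⊢
      calc _ ≤ 2 * (2 ^ d * t) * (2 * t) * (n ^ 12 * n ^ 12) * 2 ^ d :=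
            Nat.mul_le_mul_right _ few
        _ = (2 * (2 ^ d * t)) ^ 2 * n ^ 24 := by ring
        _ ≤ n ^ 2 * n ^ 24 := by gcongr
        _ = n ^ 26 := by ring
    exact_mod_cast this

/-- exponential decay beats any power -/
lemma exists_d (c C : ℝ) (hc : 0 < c) :
    ∃ d : ℕ, 1 / (2 : ℝ) ^ d < c * (1 / (67 * ((d : ℝ) + 1)) ^ 2) ^ C := by
  obtain ⟨K, hK⟩ := exists_nat_ge C
  have h := tendsto_pow_const_div_const_pow_of_one_lt (2 * K) (show (1 : ℝ) < 2 by norm_num)
  have h' := (h.comp (Filter.tendsto_add_atTop_nat 1)).const_mul (2 * 67 ^ (2 * K) : ℝ)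
  rw [mul_zero] at h'
  obtain ⟨d, hd⟩ := (h'.eventually (gt_mem_nhds hc)).exists
  refine ⟨d, ?_⟩
  simp only [Function.comp] at hd
  have p : (0 : ℝ) < 67 * ((d : ℝ) + 1) := by positivity
  have p1 : (1 : ℝ) ≤ (67 * ((d : ℝ) + 1)) ^ 2 := by
    have : (0 : ℝ) ≤ d := Nat.cast_nonneg d
    nlinarith
  have le1 : 1 / (67 * ((d : ℝ) + 1)) ^ 2 ≤ 1 := by rw [div_le_one (by positivity)]; exact p1
  have k : (1 / (67 * ((d : ℝ) + 1)) ^ 2) ^ K ≤ (1 / (67 * ((d : ℝ) + 1)) ^ 2) ^ C := by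
    rw [← Real.rpow_natCast]
    exact Real.rpow_le_rpow_of_exponent_ge (by positivity) le1 hK
  refine lt_of_lt_of_le ?_ (mul_le_mul_of_nonneg_left k hc.le)
  rw [one_div_pow, ← pow_mul, mul_one_div, div_lt_div_iff₀ (by positivity) (by positivity)]
  rw [← mul_div_assoc, div_lt_iff₀ (by positivity)] at hd
  push_cast at hd
  rw [mul_pow]
  rw [pow_succ] at hd
  nlinarith

theorem not_poly : ¬ ∃ c C : ℝ, 0 < c ∧ 0 < C ∧ ∀ n : ℕ, 1 ≤ n → ∀ ε : ℝ, 0 < ε → ε < 1 →
    ∀ A : Matrix (Fin n) (Fin n) (Fin 2), ε ≤ distFree HH A →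
      c * ε ^ C * (n : ℝ) ^ (2 * 13) ≤ numCopies HH A := by
  rintro ⟨c, C, hc, -, h⟩
  obtain ⟨d, hd⟩ := exists_d c C hc
  obtain ⟨A, h1, h2⟩ := quant d 1 le_rfl
  have hn : 1 ≤ 67 * (d + 1) * (2 ^ d * 1) := Nat.succ_le_of_lt (by positivity)
  have p1 : (1 : ℝ) < (67 * ((d : ℝ) + 1)) ^ 2 := by
    have : (0 : ℝ) ≤ d := Nat.cast_nonneg d
    nlinarith
  have := h _ hn _ (by positivity) (by rw [div_lt_one (by positivity)]; exact p1) A h1
  have hp : (0 : ℝ) < ((67 * (d + 1) * (2 ^ d * 1) : ℕ) : ℝ) ^ 26 := by positivity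
  have k := mul_lt_mul_of_pos_right hd hp
  have := this.trans h2
  rw [one_div, inv_mul_eq_div] at k
  exact absurd this (not_le.2 k)

end Vale.Agent.P037
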