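import Vale.Agent.P037.Core

namespace Vale.Agent.P037

open Finset

/-- in the anchor-anchor case every row has its own index as role -/
lemma roles_id (ρ γ : Fin 13 → Pt) (σ τ : Fin 13 → Fin 13)
    (hL : ∀ i, i ≤ 4 → (ρ i).isLeft = true) (hL' : ∀ i, i ≤ 4 → (γ i).isLeft = true)
    (hrel : ∀ i j, ((ρ i).isLeft = true ∨ (γ j).isLeft = true) → HH i j = HH (σ i) (τ j)) :
    (∀ i, σ i = i) ∧ ∀ j, τ j = j := by
  have σinj : Function.Injective σ := by
    intro i i' e
    apply HH_dist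
    intro j hj
    rw [HH_symm j i, HH_symm j i', hrel i j (Or.inr (hL' j hj)), hrel i' j (Or.inr (hL' j hj)), e]
  have τinj : Function.Injective τ := by
    intro j j' e
    apply HH_dist
    intro i hi
    rw [hrel i j (Or.inl (hL i hi)), hrel i j' (Or.inl (hL i hi)), e]
  have σbij := Finite.injective_iff_bijective.1 σinj
  have τbij := Finite.injective_iff_bijective.1 τinj
  have s1 : ∀ i, i ≤ 4 → σ i = i := by
    intro i hi
    symm
    apply HH_sum _ _ hi
    rw [← τbij.sum_comp (fun j => (HH (σ i) j).val)]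
    exact Finset.sum_congr rfl fun j _ => by rw [hrel i j (Or.inl (hL i hi))]
  have t1 : ∀ j, j ≤ 4 → τ j = j := by
    intro j hj
    symm
    apply HH_sum _ _ hj
    rw [← σbij.sum_comp (fun i => (HH (τ j) i).val)]
    exact Finset.sum_congr rfl fun i _ => by
      rw [HH_symm j i, hrel i j (Or.inr (hL' j hj)), HH_symm]
  constructor
  · intro i
    apply HH_dist
    intro j hj
    rw [HH_symm j i, HH_symm j (σ i), hrel i j (Or.inr (hL' j hj)), t1 j hj]
  · intro j
    apply HH_dist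
    intro i hi
    rw [hrel i j (Or.inl (hL i hi)), s1 i hi]

lemma isRight_of_role {tr : Bool} {μ : ℕ × Fin 5} {r : Pt} {i : Fin 13}
    (h : role tr μ r = some i) (hi : thr μ.2 ≤ i.val) :
    ∃ h' s v, r = .inr (h', s, v) ∧ mrole tr μ.1 μ.2 h' s (v % 2) = some i := by
  rcases r with ⟨μ', s⟩ | ⟨h', s, v⟩
  · simp only [role] at h
    split_ifs at h with c
    simp only [Option.some.injEq] at h
    subst h
    omega
  · exact ⟨h', s, v, rfl, h⟩

/-- the sandwich lemma: a point of height `h` between the two brackets of node `u` of height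
`h + 1` is a child of `u` -/
lemma sandwich {h u v : ℕ} {s : Bool}
    (h1 : key (.inr (h + 1, false, u)) ≤ key (.inr (h, s, v)))
    (h2 : key (.inr (h, s, v)) ≤ key (.inr (h + 1, true, u))) : v / 2 = u := by
  have a := fst_le_of_key_le h1
  have b := fst_le_of_key_le h2
  have hp : 0 < 2 ^ h := by positivity
  have a' : u * 2 * 2 ^ h < (v + 1) * 2 ^ h := by
    cases s <;> simp [key, pow_succ] at a <;> nlinarith
  have b' : v * 2 ^ h < (u * 2 + 2) * 2 ^ h := by
    cases s <;> simp [key, pow_succ] at b <;> nlinarith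
  have a'' := Nat.lt_of_mul_lt_mul_right a'
  have b'' := Nat.lt_of_mul_lt_mul_right b'
  omega

lemma r12 {tr : Bool} {h : ℕ} {m : Fin 5} {h' : ℕ} {s : Bool} {b : ℕ} (m1 : m.val ≤ 1)
    (e : mrole tr h m h' s b = some 12) : h' = h + 1 ∧ s = true := by
  simp only [mrole, if_pos m1] at e
  split_ifs at e <;> simp_all

lemma r10 {tr : Bool} {h : ℕ} {m : Fin 5} {h' : ℕ} {s : Bool} {b : ℕ} (m1 : m.val ≤ 1)
    (e : mrole tr h m h' s b = some 10) : h' = h + 1 ∧ s = false := by
  simp only [mrole, if_pos m1] at e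
  split_ifs at e <;> simp_all

lemma r11 {tr : Bool} {h : ℕ} {m : Fin 5} {h' : ℕ} {s : Bool} {b : ℕ} (m1 : m.val ≤ 1)
    (e : mrole tr h m h' s b = some 11) : h' = h ∧ b = m.val := by
  simp only [mrole, if_pos m1] at e
  split_ifs at e <;> simp_all

lemma rA {h : ℕ} {m : Fin 5} {h' : ℕ} {s s' : Bool} {b b' : ℕ} (m1 : ¬ m.val ≤ 1)
    (e : mrole false h m h' s b = some 12) (e' : mrole true h m h' s' b' = some 12) : h' = 0 := by
  simp only [mrole, if_neg m1] at e e'
  split_ifs at e e' <;> simp_all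

theorem copy_rare (ρ γ : Fin 13 → Pt) (hρ : Monotone (key ∘ ρ)) (hγ : Monotone (key ∘ γ))
    (h : ∀ i j, ent false (ρ i) (γ j) = HH i j) :
    ∃ s s' v, ρ 12 = .inr (0, s, v) ∧ γ 12 = .inr (0, s', v) := by
  have hT : ∀ i j, ent true (γ i) (ρ j) = HH i j := fun i j => by
    rw [ent_symm, HH_symm]; exact h j i
  rcases e1 : (ρ 4).isRight with _ | _
  swap
  · rcases e2 : (γ 4).isRight with _ | _
    · exact (case_am true γ ρ hγ hρ hT (by simpa using e2) e1).elim
    · exact (case_mm false ρ γ hρ hγ h e1 e2).elim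
  rcases e2 : (γ 4).isRight with _ | _
  swap
  · exact (case_am false ρ γ hρ hγ h (by simpa using e1) e2).elim
  have hL : ∀ i, i ≤ 4 → (ρ i).isLeft = true := fun i hi =>
    isLeft_of_le (hρ hi) (by simpa using e1)
  have hL' : ∀ i, i ≤ 4 → (γ i).isLeft = true := fun i hi =>
    isLeft_of_le (hγ hi) (by simpa using e2)
  obtain ⟨⟨μ, s0⟩, e0⟩ := Sum.isLeft_iff.1 (hL 0 (by decide))
  have hτ : ∀ j, ∃ t, role true μ (γ j) = some t := by
    intro j
    have k := h 0 j
    rw [e0, HH_row0, ent_left] at k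
    exact (val_eq_one k).2
  choose τ hτ using hτ
  have modeγ : ∀ j μ' s', γ j = .inl (μ', s') → μ' = μ := by
    intro j μ' s' e
    have := hτ j
    rw [e] at this
    simp only [role] at this
    split_ifs at this with c
    exact c.1
  obtain ⟨⟨μ0, t0⟩, f0⟩ := Sum.isLeft_iff.1 (hL' 0 (by decide))
  obtain rfl := modeγ 0 μ0 t0 f0
  have hσ : ∀ i, ∃ t, role false μ0 (ρ i) = some t := by
    intro i
    have k := h i 0
    rw [f0, HH_col0, ent_right] at k
    exact (val_eq_one k).1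
  choose σ hσ using hσ
  have modeρ : ∀ j μ' s', ρ j = .inl (μ', s') → μ' = μ0 := by
    intro j μ' s' e
    have := hσ j
    rw [e] at this
    simp only [role] at this
    split_ifs at this with c
    exact c.1
  have hrel : ∀ i j, ((ρ i).isLeft = true ∨ (γ j).isLeft = true) → HH i j = HH (σ i) (τ j) := by
    rintro i j (c | c)
    · obtain ⟨⟨μ', s'⟩, e'⟩ := Sum.isLeft_iff.1 c
      obtain rfl := modeρ i μ' s' e'
      rw [← h, e', ent_left, ← e', hσ, Bool.not_false, hτ]; rfl
    · obtain ⟨⟨μ', s'⟩, e'⟩ := Sum.isLeft_iff.1 c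
      obtain rfl := modeγ j μ' s' e'
      rw [← h, e', ent_right, ← e', hσ, Bool.not_false, hτ]; rfl
  obtain ⟨s1, t1⟩ := roles_id ρ γ σ τ hL hL' hrel
  simp only [s1] at hσ
  simp only [t1] at hτ
  obtain ⟨h0, m⟩ := μ0
  have thr12 : thr m ≤ (12 : Fin 13).val := by unfold thr; split_ifs <;> decide
  obtain ⟨a, sa, va, ea, ra⟩ := isRight_of_role (hσ 12) thr12
  obtain ⟨b, sb, vb, eb, rb⟩ := isRight_of_role (hτ 12) thr12
  have k := h 12 12
  rw [ea, eb, show HH 12 12 = 1 by decide +kernel] at k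
  simp only [ent] at k
  split_ifs at k with c
  swap
  · exact absurd k (by decide)
  obtain ⟨rfl, rfl⟩ := c
  by_cases m1 : m.val ≤ 1
  · exfalso
    have thr10 : thr m ≤ (10 : Fin 13).val := by unfold thr; rw [if_pos m1]; decide
    have thr11 : thr m ≤ (11 : Fin 13).val := by unfold thr; rw [if_pos m1]; decide
    obtain ⟨a0, sa0, va0, ea0, ra0⟩ := isRight_of_role (hσ 10) thr10
    obtain ⟨b0, sb0, vb0, eb0, rb0⟩ := isRight_of_role (hτ 10) thr10
    obtain ⟨a1, sa1, va1, ea1, ra1⟩ := isRight_of_role (hσ 11) thr11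
    obtain ⟨b1, sb1, vb1, eb1, rb1⟩ := isRight_of_role (hτ 11) thr11
    obtain ⟨rfl, rfl⟩ := r12 m1 ra
    obtain ⟨-, rfl⟩ := r12 m1 rb
    obtain ⟨rfl, rfl⟩ := r10 m1 ra0
    obtain ⟨rfl, rfl⟩ := r10 m1 rb0
    obtain ⟨rfl, q1⟩ := r11 m1 ra1
    obtain ⟨rfl, q2⟩ := r11 m1 rb1
    have k1 := h 10 12
    have k2 := h 12 10
    have k3 := h 11 11
    rw [ea0, eb, show HH 10 12 = 1 by decide +kernel] at k1
    rw [ea, eb0, show HH 12 10 = 1 by decide +kernel] at k2
    rw [ea1, eb1, show HH 11 11 = 0 by decide +kernel] at k3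
    simp only [ent, true_and] at k1 k2 k3
    split_ifs at k1 k2 k3 with c1 c2 c3
    all_goals first | exact absurd k1 (by decide) | exact absurd k2 (by decide) |
      exact absurd k3 (by decide) | skip
    subst c1 c2
    have x1 := hρ (show (10 : Fin 13) ≤ 11 by decide)
    have x2 := hρ (show (11 : Fin 13) ≤ 12 by decide)
    have y1 := hγ (show (10 : Fin 13) ≤ 11 by decide)
    have y2 := hγ (show (11 : Fin 13) ≤ 12 by decide)
    simp only [Function.comp, ea0, ea1, ea, eb0, eb1, eb] at x1 x2 y1 y2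
    have z1 := sandwich x1 x2
    have z2 := sandwich y1 y2
    omega
  · obtain rfl := rA m1 ra rb
    exact ⟨sa, sb, va, ea, eb⟩

end Vale.Agent.P037
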